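import Vale.Agent.P310u.Defs
import Vale.Agent.P310h2.WLGen

namespace Vale.Agent.P310u

open Function Vale.Agent.P310h2

open scoped Classical

theorem zmod2_self (a : ZMod 2) : a + a = 0 := by
  revert a; decide

theorem zmod2_cases (a : ZMod 2) : a = 0 ∨ a = 1 := by
  revert a; decide

theorem zmod2_ne0 {a : ZMod 2} (h : a ≠ 0) : a = 1 := by
  revert a; decide

namespace XS

variable {V I : Type} {S : XS V I}

/-! ### Degrees -/

section degrees

variable [Fintype V] [Fintype I]

/-- A solution seen as a vertex. -/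
def mkV {b : Bool} (x : S.Core b) : S.Vtx b := ⟨(x, 0), Nat.zero_le _⟩

omit [Fintype V] in
theorem mkV_adj {b : Bool} (x y : S.Core b) :
    (S.graph b).Adj (mkV x) (mkV y) ↔ S.coreAdj x y := by
  constructor
  · rintro (⟨_, _, h⟩ | ⟨_, h | h⟩)
    · exact h
    · exact (h.2 rfl).elim
    · exact (h.1 rfl).elim
  · intro h
    exact Or.inl ⟨rfl, rfl, h⟩

theorem card_core_le (b : Bool) : Nat.card (S.Core b) ≤ S.bnd := by
  let g : S.Core b → Σ c : I, (↥(S.vars c) → ZMod 2) := fun x => ⟨x.item, fun d => x.a d.1⟩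
  have hg : Injective g := by
    rintro ⟨i, a, h1, h2⟩ ⟨i', a', h1', h2'⟩ h
    simp only [g, Sigma.mk.injEq] at h
    obtain ⟨rfl, h3⟩ := h
    have h4 : (fun d : ↥(S.vars i) => a d.1) = fun d : ↥(S.vars i) => a' d.1 := eq_of_heq h3
    have : a = a' := by
      funext d
      by_cases hd : d ∈ S.vars i
      · exact congrFun h4 ⟨d, hd⟩
      · rw [h1 d hd, h1' d hd]
    subst this
    rfl
  have h1 := Nat.card_le_card_of_injective g hg
  refine h1.trans (le_of_eq ?_)
  rw [Nat.card_eq_fintype_card, Fintype.card_sigma]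
  simp [bnd, ZMod.card]

omit [Fintype V] in
theorem weight_ge (c : I) : 2 ≤ S.weight c := by
  unfold weight
  nlinarith [Nat.zero_le S.bnd, Nat.zero_le (S.code c)]

theorem dg_core_ge {b : Bool} (x : S.Core b) : S.weight x.item ≤ dg (S.graph b) (mkV x) := by
  unfold dg
  let g : Fin (S.weight x.item) → {w // (S.graph b).Adj (mkV x) w} := fun i =>
    ⟨⟨(x, i.val + 1), by exact i.isLt⟩, Or.inr ⟨rfl, Or.inl ⟨rfl, by simp⟩⟩⟩
  have hg : Injective g := by
    intro i j h
    have h1 := congrArg (fun w => w.1.1.2) h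
    simp only [g] at h1
    exact Fin.ext (by omega)
  have := Nat.card_le_card_of_injective g hg
  simpa using this

theorem dg_core_lt {b : Bool} (x : S.Core b) :
    dg (S.graph b) (mkV x) < S.weight x.item + (S.bnd + 2) := by
  unfold dg
  let g : {w // (S.graph b).Adj (mkV x) w} → Fin (S.weight x.item) ⊕ S.Core b := fun w =>
    if h : w.1.1.2 = 0 then Sum.inr w.1.1.1
    else Sum.inl ⟨w.1.1.2 - 1, by
      have h1 := w.1.2
      rcases w.2 with ⟨_, h2, _⟩ | ⟨h2, _⟩
      · exact (h h2).elim
      · have h3 : x = w.1.1.1 := h2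
        rw [← h3] at h1
        omega⟩
  have hg : Injective g := by
    rintro ⟨w, hw⟩ ⟨w', hw'⟩ h
    apply Subtype.ext
    apply Subtype.ext
    simp only [g] at h
    by_cases h1 : w.1.2 = 0 <;> by_cases h2 : w'.1.2 = 0
    · rw [dif_pos h1, dif_pos h2] at h
      apply Prod.ext
      · exact Sum.inr.inj h
      · rw [h1, h2]
    · rw [dif_pos h1, dif_neg h2] at h
      exact (Sum.inr_ne_inl h).elim
    · rw [dif_neg h1, dif_pos h2] at h
      exact (Sum.inl_ne_inr h).elim
    · rw [dif_neg h1, dif_neg h2] at h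
      have h3 : w.1.2 - 1 = w'.1.2 - 1 := congrArg Fin.val (Sum.inl.inj h)
      apply Prod.ext
      · rcases hw with ⟨_, h4, _⟩ | ⟨h4, _⟩
        · exact (h1 h4).elim
        rcases hw' with ⟨_, h5, _⟩ | ⟨h5, _⟩
        · exact (h2 h5).elim
        exact (h4.symm.trans h5)
      · show w.1.2 = w'.1.2
        omega
  have h1 := Nat.card_le_card_of_injective g hg
  rw [Nat.card_sum] at h1
  simp only [Nat.card_eq_fintype_card, Fintype.card_fin] at h1
  have h2 := card_core_le (S := S) b
  simp only [Nat.card_eq_fintype_card] at h1 h2 ⊢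
  omega

theorem dg_leaf_le {b : Bool} (v : S.Vtx b) (hv : v.1.2 ≠ 0) : dg (S.graph b) v ≤ 1 := by
  unfold dg
  rw [Finite.card_le_one_iff_subsingleton]
  constructor
  rintro ⟨w, hw⟩ ⟨w', hw'⟩
  apply Subtype.ext
  apply Subtype.ext
  rcases hw with ⟨h, _⟩ | ⟨h1, h2 | h2⟩
  · exact (hv h).elim
  · exact (hv h2.1).elim
  rcases hw' with ⟨h, _⟩ | ⟨h1', h2' | h2'⟩
  · exact (hv h).elim
  · exact (hv h2'.1).elim
  apply Prod.ext
  · exact h1.symm.trans h1'
  · rw [h2.2, h2'.2]

/-- Equal degree forces the same equation, for solutions. -/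
theorem class_of_dg (hc : Injective S.code) {b b' : Bool} (x : S.Core b) (v : S.Vtx b')
    (h : dg (S.graph b) (mkV x) = dg (S.graph b') v) :
    ∃ y : S.Core b', v = mkV y ∧ y.item = x.item := by
  have h1 := dg_core_ge x
  have h2 := dg_core_lt x
  have h3 : 2 ≤ S.weight x.item := weight_ge _
  by_cases hv : v.1.2 = 0
  · have hvv : v = mkV v.1.1 := by
      apply Subtype.ext
      apply Prod.ext
      · rfl
      · exact hv
    refine ⟨v.1.1, hvv, ?_⟩
    have h4 := dg_core_ge v.1.1
    have h5 := dg_core_lt v.1.1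
    rw [← hvv] at h4 h5
    apply hc
    set D := S.bnd + 2 with hD
    have hDpos : 0 < D := by omega
    have e1 : S.weight x.item = D * (S.code x.item + 1) := rfl
    have e2 : S.weight v.1.1.item = D * (S.code v.1.1.item + 1) := rfl
    rw [e1] at h1 h2
    rw [e2] at h4 h5
    rw [← h] at h4 h5
    generalize S.code x.item = A at *
    generalize S.code v.1.1.item = B at *
    generalize dg (S.graph b) (mkV x) = n at *
    have : A = B := by
      rcases Nat.lt_trichotomy A B with h6 | h6 | h6
      · exfalso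
        have : D * (A + 2) ≤ D * (B + 1) := Nat.mul_le_mul_left D (by omega)
        have e3 : D * (A + 2) = D * (A + 1) + D := by ring
        omega
      · exact h6
      · exfalso
        have : D * (B + 2) ≤ D * (A + 1) := Nat.mul_le_mul_left D (by omega)
        have e3 : D * (B + 2) = D * (B + 1) + D := by ring
        omega
    exact this.symm
  · have := dg_leaf_le v hv
    omega

/-! ### Pebble moves on solutions -/

variable {m : ℕ}

/-- Pairs of tuples of solutions with equal colours in all rounds. -/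
def Eqv {b b' : Bool} (x : Fin m → S.Core b) (y : Fin m → S.Core b') : Prop :=
  EqvAll (S.graph b) (S.graph b') (fun i => mkV (x i)) (fun i => mkV (y i))

omit [Fintype V] in
theorem comp_update_mkV {b : Bool} (x : Fin m → S.Core b) (i : Fin m) (c : S.Core b) :
    (fun j => mkV (update x i c j)) = update (fun j => mkV (x j)) i (mkV c) := by
  funext j
  by_cases hj : j = i
  · subst hj
    simp
  · simp [hj]

theorem Eqv.symm {b b' : Bool} {x : Fin m → S.Core b} {y : Fin m → S.Core b'} (h : Eqv x y) :
    Eqv y x := fun r => (h r).symm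

/-- Placing a solution in the tuple. -/
theorem Eqv.place (hc : Injective S.code) (hm : 2 ≤ m) {b b' : Bool} {x : Fin m → S.Core b}
    {y : Fin m → S.Core b'} (h : Eqv x y) (i : Fin m) (c : S.Core b) :
    ∃ c' : S.Core b', c'.item = c.item ∧ Eqv (update x i c) (update y i c') ∧
      ∀ j, S.coreAdj c (x j) ↔ S.coreAdj c' (y j) := by
  obtain ⟨v', h1, h2, h3⟩ := EqvAll.place hm h i (mkV c)
  obtain ⟨c', rfl, h4⟩ := class_of_dg hc c v' h3
  refine ⟨c', h4, ?_, ?_⟩
  · unfold Eqv
    rw [comp_update_mkV, comp_update_mkV]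
    exact h1
  · intro j
    have := h2 j
    rwa [mkV_adj, mkV_adj] at this

/-- Equations of matched entries are the same. -/
theorem Eqv.item_eq (hc : Injective S.code) (hm : 2 ≤ m) {b b' : Bool} {x : Fin m → S.Core b}
    {y : Fin m → S.Core b'} (h : Eqv x y) (i : Fin m) : (y i).item = (x i).item := by
  have h1 := EqvAll.dg_eq hm h i
  obtain ⟨c', h2, h3⟩ := class_of_dg hc (x i) (mkV (y i)) h1
  have : y i = c' := by
    have := congrArg (fun v => v.1.1) h2
    exact this
  rw [this]
  exact h3

end degrees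

/-! ### The duplicator -/

section duplicator

variable [Fintype V]

/-- The pairing. -/
def pr (e g : V → ZMod 2) : ZMod 2 := ∑ d, e d * g d

theorem pr_add (e f g : V → ZMod 2) : pr (e + f) g = pr e g + pr f g := by
  simp only [pr, Pi.add_apply, add_mul, Finset.sum_add_distrib]

/-- The vector of an equation. -/
noncomputable def vecOf (S : XS V I) (c : I) : V → ZMod 2 := fun d => if d ∈ S.vars c then 1 else 0

theorem pr_vec (c : I) (g : V → ZMod 2) : pr (vecOf S c) g = ∑ d ∈ S.vars c, g d := by
  unfold pr vecOf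
  rw [← Finset.sum_filter_add_sum_filter_not Finset.univ (fun d => d ∈ S.vars c)]
  have e1 : Finset.filter (fun d => d ∈ S.vars c) Finset.univ = S.vars c := by
    ext d
    simp
  rw [e1]
  have e2 : ∑ x ∈ Finset.filter (fun d => ¬ d ∈ S.vars c) Finset.univ,
      (if x ∈ S.vars c then (1 : ZMod 2) else 0) * g x = 0 := by
    apply Finset.sum_eq_zero
    intro x hx
    rw [if_neg (Finset.mem_filter.1 hx).2, zero_mul]
  rw [e2, add_zero]
  apply Finset.sum_congr rfl
  intro x hx
  rw [if_pos hx, one_mul]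

/-- The union of variables of a set of equations. -/
def WW (S : XS V I) (T : Finset I) : Set V := {d | ∃ c ∈ T, d ∈ S.vars c}

/-- Support inside a set of variables. -/
def Sup (e : V → ZMod 2) (W : Set V) : Prop := ∀ d, e d ≠ 0 → d ∈ W

/-- `g` satisfies all derived equations supported in `W`. -/
def Cons (Fam : Set ((V → ZMod 2) × ZMod 2)) (g : V → ZMod 2) (W : Set V) : Prop :=
  ∀ e ρ, (e, ρ) ∈ Fam → Sup e W → pr e g = ρ

/-- The family of derived equations of the duplicator. -/
structure DFam (S : XS V I) (m : ℕ) (Fam : Set ((V → ZMod 2) × ZMod 2)) : Prop where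
  ax : ∀ c, (vecOf S c, S.tw c) ∈ Fam
  add : ∀ e ρ f σ (T : Finset I), (e, ρ) ∈ Fam → (f, σ) ∈ Fam → T.card ≤ m + 1 →
    Sup e (WW S T) → Sup f (WW S T) → (e + f, ρ + σ) ∈ Fam
  no : ((0 : V → ZMod 2), (1 : ZMod 2)) ∉ Fam

variable {m : ℕ} {Fam : Set ((V → ZMod 2) × ZMod 2)}

theorem Cons.mono {g : V → ZMod 2} {W W' : Set V} (h : Cons Fam g W') (hs : W ⊆ W') :
    Cons Fam g W := fun e ρ h1 h2 => h e ρ h1 (fun d hd => hs (h2 d hd))

theorem pr_congr {e g g' : V → ZMod 2} {W : Set V} (h : Sup e W) (hg : ∀ d ∈ W, g d = g' d) :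
    pr e g = pr e g' := by
  apply Finset.sum_congr rfl
  intro d _
  by_cases hd : e d = 0
  · rw [hd, zero_mul, zero_mul]
  · rw [hg d (h d hd)]

/-- The extension lemma. -/
theorem extend (hF : DFam S m Fam) {T : Finset I} (hT : T.card ≤ m + 1) {U : Set V}
    (_hU : U ⊆ WW S T) {g : V → ZMod 2} (hg : Cons Fam g U) :
    ∃ g', Cons Fam g' (WW S T) ∧ ∀ d ∈ U, g' d = g d := by
  set W := WW S T with hW
  -- the span
  let gens : Set ((V → ZMod 2) × ZMod 2) :=
    {z | z ∈ Fam ∧ Sup z.1 W} ∪ {z | ∃ d ∈ U, z = (Pi.single d 1, g d)}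
  let A : Submodule (ZMod 2) ((V → ZMod 2) × ZMod 2) := Submodule.span (ZMod 2) gens
  -- the shape of the elements of the span
  let P : ((V → ZMod 2) × ZMod 2) → Prop := fun z =>
    ∃ z0 h, (z0 = 0 ∨ (z0 ∈ Fam ∧ Sup z0.1 W)) ∧ Sup h U ∧ z = z0 + (h, pr h g)
  have hP0 : P 0 := ⟨0, 0, Or.inl rfl, fun d hd => (hd rfl).elim, by
    ext <;> simp [pr]⟩
  have hPadd : ∀ z z', P z → P z' → P (z + z') := by
    rintro z z' ⟨z0, h, h1, h2, rfl⟩ ⟨z0', h', h1', h2', rfl⟩
    refine ⟨z0 + z0', h + h', ?_, ?_, ?_⟩
    · rcases h1 with rfl | h1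
      · rw [zero_add]
        exact h1'
      rcases h1' with rfl | h1'
      · rw [add_zero]
        exact Or.inr h1
      · right
        have e1 := hF.add z0.1 z0.2 z0'.1 z0'.2 T h1.1 h1'.1 hT h1.2 h1'.2
        refine ⟨e1, ?_⟩
        intro d hd
        by_cases h3 : z0.1 d = 0
        · apply h1'.2 d
          intro h4
          apply hd
          simp [h3, h4]
        · exact h1.2 d h3
    · intro d hd
      by_cases h3 : h d = 0
      · apply h2' d
        intro h4
        apply hd
        simp [h3, h4]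
      · exact h2 d h3
    · have : pr (h + h') g = pr h g + pr h' g := pr_add _ _ _
      ext <;> simp [this] <;> abel
  have hPsmul : ∀ (r : ZMod 2) z, P z → P (r • z) := by
    intro r z hz
    rcases zmod2_cases r with rfl | rfl
    · rw [zero_smul]
      exact hP0
    · rw [one_smul]
      exact hz
  have hPmem : ∀ z ∈ A, P z := by
    intro z hz
    induction hz using Submodule.span_induction with
    | mem z hz =>
      rcases hz with hz | ⟨d, hd, rfl⟩
      · refine ⟨z, 0, Or.inr hz, fun d hd => (hd rfl).elim, ?_⟩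
        ext <;> simp [pr]
      · refine ⟨0, Pi.single d 1, Or.inl rfl, ?_, ?_⟩
        · intro d' hd'
          by_cases e : d' = d
          · rw [e]
            exact hd
          · exact (hd' (by simp [e])).elim
        · have : pr (Pi.single d 1) g = g d := by
            unfold pr
            rw [Finset.sum_eq_single d]
            · simp
            · intro b _ hb
              simp [hb]
            · simp
          rw [zero_add, this]
    | zero => exact hP0
    | add z z' _ _ h1 h2 => exact hPadd z z' h1 h2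
    | smul r z _ h1 => exact hPsmul r z h1
  have hno : ((0 : V → ZMod 2), (1 : ZMod 2)) ∉ A := by
    intro hmem
    obtain ⟨z0, h, h1, h2, h3⟩ := hPmem _ hmem
    have e1 : (0 : V → ZMod 2) = z0.1 + h := congrArg Prod.fst h3
    have e2 : (1 : ZMod 2) = z0.2 + pr h g := congrArg Prod.snd h3
    have e3 : z0.1 = h := by
      funext d
      have := congrFun e1 d
      simp only [Pi.zero_apply, Pi.add_apply] at this
      have h5 := zmod2_self (h d)
      have h6 : z0.1 d + h d + h d = 0 + h d := by rw [← this]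
      rw [add_assoc, h5, add_zero, zero_add] at h6
      exact h6
    rcases h1 with rfl | h1
    · have e4 : h = 0 := e3.symm
      subst e4
      simp [pr] at e2
    · have e4 : pr h g = z0.2 := by
        have := hg z0.1 z0.2 h1.1 (e3 ▸ h2)
        rw [← e3]
        exact this
      rw [e4, zmod2_self] at e2
      exact one_ne_zero e2
  obtain ⟨f, hf1, hf2⟩ := Submodule.exists_le_ker_of_notMem hno
  let g' : V → ZMod 2 := fun d => f (Pi.single d 1, 0)
  have hsum : ∀ e : V → ZMod 2, f (e, 0) = pr e g' := by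
    intro e
    let L := f.comp (LinearMap.inl (ZMod 2) (V → ZMod 2) (ZMod 2))
    have h1 := LinearMap.pi_apply_eq_sum_univ L e
    have h2 : L e = f (e, 0) := rfl
    rw [← h2, h1]
    apply Finset.sum_congr rfl
    intro d _
    have h3 : (fun j => if d = j then (1 : ZMod 2) else 0) = Pi.single d 1 := by
      funext j
      by_cases hj : j = d
      · subst hj
        simp
      · have hj' : ¬ d = j := fun h => hj h.symm
        simp [hj, hj']
    rw [h3, smul_eq_mul]
    rfl
  have hfv : f (0, 1) = 1 := zmod2_ne0 hf1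
  have hsplit : ∀ (e : V → ZMod 2) (ρ : ZMod 2), f (e, ρ) = pr e g' + ρ := by
    intro e ρ
    have h1 : ((e, ρ) : (V → ZMod 2) × ZMod 2) = (e, 0) + ρ • (0, 1) := by
      ext <;> simp
    rw [h1, map_add, map_smul, hfv, hsum, smul_eq_mul, mul_one]
  have hker : ∀ z ∈ A, f z = 0 := fun z hz => hf2 hz
  have hfinal : ∀ a b : ZMod 2, a + b = 0 → a = b := by decide
  refine ⟨g', ?_, ?_⟩
  · intro e ρ h1 h2
    have h3 := hker (e, ρ) (Submodule.subset_span (Or.inl ⟨h1, h2⟩))
    rw [hsplit] at h3
    exact hfinal _ _ h3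
  · intro d hd
    have h3 := hker _ (Submodule.subset_span (Or.inr ⟨d, hd, rfl⟩))
    rw [hsplit] at h3
    have h4 : pr (Pi.single d 1) g' = g' d := by
      unfold pr
      rw [Finset.sum_eq_single d]
      · simp
      · intro b _ hb
        simp [hb]
      · simp
    rw [h4] at h3
    exact hfinal _ _ h3

/-- Two solutions matched by the change `g`. -/
def CMat (g : V → ZMod 2) (x : S.Core false) (y : S.Core true) : Prop :=
  x.item = y.item ∧ ∀ d ∈ S.vars x.item, y.a d = x.a d + g d

omit [Fintype V] in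
theorem CMat_eq {g : V → ZMod 2} {x x' : S.Core false} {y y' : S.Core true} (h : CMat g x y)
    (h' : CMat g x' y') : x = x' ↔ y = y' := by
  constructor
  · rintro rfl
    apply XS.Core.ext
    · rw [← h.1, ← h'.1]
    · funext d
      by_cases hd : d ∈ S.vars x.item
      · rw [h.2 d hd, h'.2 d hd]
      · rw [y.sup d (h.1 ▸ hd), y'.sup d (h'.1 ▸ hd)]
  · rintro rfl
    apply XS.Core.ext
    · rw [h.1, h'.1]
    · funext d
      by_cases hd : d ∈ S.vars x.item
      · have h1 := h.2 d hd
        have h2 := h'.2 d (h'.1 ▸ h.1 ▸ hd)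
        rw [h1] at h2
        exact add_right_cancel h2
      · rw [x.sup d hd, x'.sup d (fun h3 => hd (h.1 ▸ h'.1.symm ▸ h3))]

omit [Fintype V] in
theorem CMat_adj {g : V → ZMod 2} {x x' : S.Core false} {y y' : S.Core true} (h : CMat g x y)
    (h' : CMat g x' y') : S.coreAdj x x' ↔ S.coreAdj y y' := by
  unfold coreAdj
  rw [← h.1, ← h'.1]
  apply and_congr_right
  intro _
  apply forall_congr'
  intro d
  apply imp_congr_right
  intro h1
  apply imp_congr_right
  intro h2
  rw [h.2 d h1, h'.2 d h2]
  constructor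
  · intro e
    rw [e]
  · exact fun e => add_right_cancel e

variable [Fintype I]

/-- Two vertices matched by the change `g`. -/
def Mat (g : V → ZMod 2) (v : S.Vtx false) (w : S.Vtx true) : Prop :=
  CMat g v.1.1 w.1.1 ∧ v.1.2 = w.1.2

omit [Fintype V] in
theorem Mat_eq {g : V → ZMod 2} {v v' : S.Vtx false} {w w' : S.Vtx true} (h : Mat g v w)
    (h' : Mat g v' w') : v = v' ↔ w = w' := by
  have key := CMat_eq h.1 h'.1
  constructor
  · intro e
    apply Subtype.ext
    apply Prod.ext
    · exact key.1 (by rw [e])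
    · rw [← h.2, ← h'.2, e]
  · intro e
    apply Subtype.ext
    apply Prod.ext
    · exact key.2 (by rw [e])
    · rw [h.2, h'.2, e]

omit [Fintype V] in
theorem Mat_adj {g : V → ZMod 2} {v v' : S.Vtx false} {w w' : S.Vtx true} (h : Mat g v w)
    (h' : Mat g v' w') : (S.graph false).Adj v v' ↔ (S.graph true).Adj w w' := by
  have key := CMat_eq h.1 h'.1
  have key2 := CMat_adj h.1 h'.1
  have e1 := h.2
  have e2 := h'.2
  show ((v.1.2 = 0 ∧ v'.1.2 = 0 ∧ S.coreAdj v.1.1 v'.1.1) ∨
      (v.1.1 = v'.1.1 ∧ ((v.1.2 = 0 ∧ v'.1.2 ≠ 0) ∨ (v.1.2 ≠ 0 ∧ v'.1.2 = 0)))) ↔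
    ((w.1.2 = 0 ∧ w'.1.2 = 0 ∧ S.coreAdj w.1.1 w'.1.1) ∨
      (w.1.1 = w'.1.1 ∧ ((w.1.2 = 0 ∧ w'.1.2 ≠ 0) ∨ (w.1.2 ≠ 0 ∧ w'.1.2 = 0))))
  rw [key, key2, e1, e2]

omit [Fintype V] [Fintype I] in
/-- The change by `gg`, depending on the equation, from the homogeneous to the twisted system. -/
theorem flip_eqn_aux {gg : I → V → ZMod 2} (hgg : ∀ c, ∑ d ∈ S.vars c, gg c d = S.tw c) {b b' : Bool}
    (hb : b' = !b) (x : S.Core b) :
    ∑ d ∈ S.vars x.item, (if d ∈ S.vars x.item then x.a d + gg x.item d else 0) =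
      S.rhs b' x.item := by
  have h1 : ∑ d ∈ S.vars x.item, (if d ∈ S.vars x.item then x.a d + gg x.item d else 0) =
      ∑ d ∈ S.vars x.item, (x.a d + gg x.item d) :=
    Finset.sum_congr rfl (fun d hd => if_pos hd)
  rw [h1, Finset.sum_add_distrib, x.eqn, hgg]
  subst hb
  cases b
  · simp [rhs]
  · simp [rhs, zmod2_self]

omit [Fintype V] [Fintype I] in
/-- The change of a solution. -/
noncomputable def flipC (gg : I → V → ZMod 2) (hgg : ∀ c, ∑ d ∈ S.vars c, gg c d = S.tw c) {b b' : Bool}
    (hb : b' = !b) (x : S.Core b) : S.Core b' where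
  item := x.item
  a := fun d => if d ∈ S.vars x.item then x.a d + gg x.item d else 0
  sup := fun d hd => if_neg hd
  eqn := flip_eqn_aux hgg hb x

omit [Fintype V] [Fintype I] in
theorem flipC_flipC (gg : I → V → ZMod 2) (hgg : ∀ c, ∑ d ∈ S.vars c, gg c d = S.tw c) {b b' : Bool}
    (hb : b' = !b) (hb' : b = !b') (x : S.Core b) : flipC gg hgg hb' (flipC gg hgg hb x) = x := by
  apply XS.Core.ext
  · rfl
  · funext d
    show (if d ∈ S.vars x.item then
      (if d ∈ S.vars x.item then x.a d + gg x.item d else 0) + gg x.item d else 0) = x.a d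
    by_cases hd : d ∈ S.vars x.item
    · rw [if_pos hd, if_pos hd, add_assoc, zmod2_self, add_zero]
    · rw [if_neg hd, x.sup d hd]

/-- The bijection of vertices given by a change for each equation. -/
noncomputable def flipE (gg : I → V → ZMod 2) (hgg : ∀ c, ∑ d ∈ S.vars c, gg c d = S.tw c) :
    S.Vtx false ≃ S.Vtx true where
  toFun v := ⟨(flipC gg hgg rfl v.1.1, v.1.2), v.2⟩
  invFun w := ⟨(flipC gg hgg rfl w.1.1, w.1.2), w.2⟩
  left_inv v := by
    apply Subtype.ext
    apply Prod.ext
    · exact flipC_flipC gg hgg rfl rfl v.1.1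
    · rfl
  right_inv w := by
    apply Subtype.ext
    apply Prod.ext
    · exact flipC_flipC gg hgg rfl rfl w.1.1
    · rfl

omit [Fintype V] in
theorem flipE_item (gg : I → V → ZMod 2) (hgg : ∀ c, ∑ d ∈ S.vars c, gg c d = S.tw c)
    (v : S.Vtx false) : (flipE gg hgg v).1.1.item = v.1.1.item := rfl

omit [Fintype V] in
theorem flipE_symm_item (gg : I → V → ZMod 2) (hgg : ∀ c, ∑ d ∈ S.vars c, gg c d = S.tw c)
    (v : S.Vtx true) : ((flipE gg hgg).symm v).1.1.item = v.1.1.item := rfl

omit [Fintype V] in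
theorem flipE_mat (gg : I → V → ZMod 2) (hgg : ∀ c, ∑ d ∈ S.vars c, gg c d = S.tw c)
    (v : S.Vtx false) : Mat (gg v.1.1.item) v (flipE gg hgg v) := by
  refine ⟨⟨rfl, ?_⟩, rfl⟩
  intro d hd
  show (if d ∈ S.vars v.1.1.item then v.1.1.a d + gg v.1.1.item d else 0) = _
  rw [if_pos hd]

omit [Fintype V] in
theorem Mat_congr {g g' : V → ZMod 2} {v : S.Vtx false} {w : S.Vtx true} (h : Mat g v w)
    (hg : ∀ d ∈ S.vars v.1.1.item, g' d = g d) : Mat g' v w := by
  refine ⟨⟨h.1.1, ?_⟩, h.2⟩
  intro d hd
  rw [h.1.2 d hd, hg d hd]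

/-- The equations of a tuple. -/
noncomputable def classes {m : ℕ} (x : Fin m → S.Vtx false) : Finset I :=
  Finset.univ.image (fun i => (x i).1.1.item)

omit [Fintype V] in
theorem mem_classes {m : ℕ} (x : Fin m → S.Vtx false) (i : Fin m) :
    (x i).1.1.item ∈ classes x := Finset.mem_image.2 ⟨i, Finset.mem_univ i, rfl⟩

omit [Fintype V] in
theorem classes_card {m : ℕ} (x : Fin m → S.Vtx false) : (classes x).card ≤ m := by
  have := Finset.card_image_le (s := (Finset.univ : Finset (Fin m)))
    (f := fun i => (x i).1.1.item)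
  simpa [classes] using this

omit [Fintype V] [Fintype I] in
theorem mem_WW {T : Finset I} {c : I} (hc : c ∈ T) {d : V} (hd : d ∈ S.vars c) : d ∈ WW S T :=
  ⟨c, hc, hd⟩

theorem map_univ_equiv2 {α β γ : Type} [Fintype α] [Fintype β] (σ : α ≃ β) (F : β → γ) :
    Multiset.map (fun a => F (σ a)) (Finset.univ : Finset α).val =
      Multiset.map F (Finset.univ : Finset β).val := by
  have h3 : (Finset.univ : Finset β).val = Multiset.map σ (Finset.univ : Finset α).val := by
    have := Finset.map_univ_equiv σ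
    have h4 := congrArg Finset.val this
    rw [Finset.map_val] at h4
    exact h4.symm
  conv_rhs => rw [h3]
  rw [Multiset.map_map]
  rfl

/-- Positions of the duplicator. -/
def Rel (Fam : Set ((V → ZMod 2) × ZMod 2)) {m : ℕ} (x : Fin m → S.Vtx false)
    (y : Fin m → S.Vtx true) : Prop :=
  ∃ g, Cons Fam g (WW S (classes x)) ∧ ∀ i, Mat g (x i) (y i)

omit [Fintype I] in
/-- Every change good for the equation `c` solves the equation. -/
theorem cons_eqn (hF : DFam S m Fam) {g : V → ZMod 2} {W : Set V} (h : Cons Fam g W) (c : I)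
    (hc : ∀ d ∈ S.vars c, d ∈ W) : ∑ d ∈ S.vars c, g d = S.tw c := by
  have h1 := h _ _ (hF.ax c) (by
    intro d hd
    apply hc
    by_contra h2
    exact hd (by simp [vecOf, h2]))
  rwa [pr_vec] at h1

omit [Fintype I] in
/-- Extending with all equations. -/
theorem extend_all (hF : DFam S m Fam) {T : Finset I} (hT : T.card ≤ m) {g : V → ZMod 2}
    (hg : Cons Fam g (WW S T)) :
    ∃ gg : I → V → ZMod 2, (∀ c, Cons Fam (gg c) (WW S (insert c T))) ∧
      (∀ c, ∀ d ∈ WW S T, gg c d = g d) ∧ (∀ c, ∑ d ∈ S.vars c, gg c d = S.tw c) := by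
  have hext : ∀ c, ∃ g', Cons Fam g' (WW S (insert c T)) ∧ ∀ d ∈ WW S T, g' d = g d := by
    intro c
    apply extend hF ((Finset.card_insert_le c T).trans (by omega)) _ hg
    rintro d ⟨c', hc', hd⟩
    exact ⟨c', Finset.mem_insert_of_mem hc', hd⟩
  choose gg h1 h2 using hext
  refine ⟨gg, h1, h2, ?_⟩
  intro c
  apply cons_eqn hF (h1 c)
  intro d hd
  exact ⟨c, Finset.mem_insert_self c T, hd⟩

theorem rel_color (hF : DFam S m Fam) :
    ∀ (r : ℕ) (x : Fin m → S.Vtx false) (y : Fin m → S.Vtx true), Rel Fam x y →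
      wlColor (S.graph false) r x = wlColor (S.graph true) r y := by
  intro r
  induction r with
  | zero =>
    rintro x y ⟨g, _, hm⟩
    funext i j
    apply Prod.ext
    · simp only [wlColor]
      exact propext (Mat_eq (hm i) (hm j))
    · simp only [wlColor]
      exact propext (Mat_adj (hm i) (hm j))
  | succ r ih =>
    rintro x y ⟨g, hg, hm⟩
    obtain ⟨gg, h1, h2, h3⟩ := extend_all hF (classes_card x) hg
    have hrel : ∀ v i, Rel Fam (update x i v) (update y i (flipE gg h3 v)) := by
      intro v i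
      refine ⟨gg v.1.1.item, (h1 _).mono ?_, ?_⟩
      · rintro d ⟨c, hc, hd⟩
        obtain ⟨j, _, rfl⟩ := Finset.mem_image.1 hc
        by_cases hj : j = i
        · subst hj
          simp only [update_self] at hd
          exact ⟨_, Finset.mem_insert_self _ _, hd⟩
        · simp only [update_of_ne hj] at hd
          exact ⟨_, Finset.mem_insert_of_mem (mem_classes x j), hd⟩
      · intro j
        by_cases hj : j = i
        · subst hj
          simp only [update_self]
          exact flipE_mat gg h3 v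
        · simp only [update_of_ne hj]
          apply Mat_congr (hm j)
          intro d hd
          exact h2 _ d ⟨_, mem_classes x j, hd⟩
    simp only [wlColor]
    apply Prod.ext
    · exact ih x y ⟨g, hg, hm⟩
    · simp only
      have e : ∀ v : S.Vtx false, (fun i => wlColor (S.graph false) r (update x i v)) =
          (fun i => wlColor (S.graph true) r (update y i (flipE gg h3 v))) := by
        intro v
        funext i
        exact ih _ _ (hrel v i)
      rw [Multiset.map_congr rfl (fun v _ => e v)]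
      exact map_univ_equiv2 (flipE gg h3) (fun w i => wlColor (S.graph true) r (update y i w))

/-- The duplicator theorem: a family of derived equations without contradiction gives
equivalence. -/
theorem dup_equiv (hF : DFam S m Fam) : WLEquiv (S.graph false) (S.graph true) m := by
  -- a good change for each family of equations
  have hstart : ∀ κ : Fin m → I, ∃ g, Cons Fam g (WW S (Finset.univ.image κ)) := by
    intro κ
    have hT : (Finset.univ.image κ).card ≤ m + 1 := by
      have := Finset.card_image_le (s := (Finset.univ : Finset (Fin m))) (f := κ)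
      simp only [Finset.card_univ, Fintype.card_fin] at this
      omega
    obtain ⟨g', h1, _⟩ := extend (S := S) hF hT (U := ∅) (g := 0) (Set.empty_subset _) (by
      intro e ρ h1 h2
      have e0 : e = 0 := by
        funext d
        by_contra h3
        exact h2 d h3
      subst e0
      have : ρ ≠ 1 := fun h4 => hF.no (h4 ▸ h1)
      have h5 : ρ = 0 := by
        rcases zmod2_cases ρ with h5 | h5
        · exact h5
        · exact (this h5).elim
      rw [h5]
      simp [pr])
    exact ⟨g', h1⟩
  choose G hG using hstart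
  have hcardT : ∀ κ : Fin m → I, (Finset.univ.image κ).card ≤ m := by
    intro κ
    have := Finset.card_image_le (s := (Finset.univ : Finset (Fin m))) (f := κ)
    simpa using this
  choose GG h1 h2 h3 using fun κ => extend_all hF (hcardT κ) (hG κ)
  let K : (Fin m → S.Vtx false) → Fin m → I := fun x i => (x i).1.1.item
  let K' : (Fin m → S.Vtx true) → Fin m → I := fun x i => (x i).1.1.item
  let Φ : (Fin m → S.Vtx false) ≃ (Fin m → S.Vtx true) :=
    { toFun := fun x i => flipE (GG (K x)) (h3 (K x)) (x i)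
      invFun := fun y i => (flipE (GG (K' y)) (h3 (K' y))).symm (y i)
      left_inv := by
        intro x
        funext i
        have e : K' (fun i => flipE (GG (K x)) (h3 (K x)) (x i)) = K x := rfl
        simp only [e]
        exact (flipE (GG (K x)) (h3 (K x))).symm_apply_apply (x i)
      right_inv := by
        intro y
        funext i
        have e : K (fun i => (flipE (GG (K' y)) (h3 (K' y))).symm (y i)) = K' y := rfl
        simp only [e]
        exact (flipE (GG (K' y)) (h3 (K' y))).apply_symm_apply (y i) }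
  have hrel : ∀ x, Rel Fam x (Φ x) := by
    intro x
    refine ⟨G (K x), hG (K x), ?_⟩
    intro i
    apply Mat_congr (flipE_mat (GG (K x)) (h3 (K x)) (x i))
    intro d hd
    refine (h2 (K x) _ d ⟨_, Finset.mem_image.2 ⟨i, Finset.mem_univ _, rfl⟩, hd⟩).symm
  intro r
  have e : ∀ x, wlColor (S.graph false) r x = wlColor (S.graph true) r (Φ x) := fun x =>
    rel_color hF r x (Φ x) (hrel x)
  rw [Multiset.map_congr rfl (fun x _ => e x)]
  exact map_univ_equiv2 Φ (wlColor (S.graph true) r)

omit [Fintype V] in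
/-- Equal numbers of vertices. -/
theorem card_eq (hne : ∀ c, (S.vars c).Nonempty) : Nat.card (S.Vtx false) = Nat.card (S.Vtx true) := by
  have h1 : ∀ c, ∃ g : V → ZMod 2, ∑ d ∈ S.vars c, g d = S.tw c := by
    intro c
    obtain ⟨d0, hd0⟩ := hne c
    refine ⟨Pi.single d0 (S.tw c), ?_⟩
    rw [Finset.sum_eq_single d0]
    · simp
    · intro b _ hb
      simp [hb]
    · intro h
      exact (h hd0).elim
  choose gg hgg using h1
  exact Nat.card_congr (flipE gg hgg)

end duplicator

end XS

end Vale.Agent.P310u
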