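import Vale.Agent.P310u.Horn

set_option linter.unusedSectionVars false
set_option linter.unusedVariables false

namespace Vale.Agent.P310u

open Function Vale.Agent.P310h2

open scoped Classical

namespace XS

variable {V I : Type} [Fintype V] [Fintype I] (S : XS V I)

/-- The number of vertices of the graph of a linear system. -/
theorem card_vtx_le {C w : ℕ} (hC : ∀ c, S.code c < C) (hw : ∀ c, (S.vars c).card ≤ w) (b : Bool) :
    Nat.card (S.Vtx b) ≤ (Fintype.card I * 2 ^ w + 2) ^ 2 * (C + 1) := by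
  set B := Fintype.card I * 2 ^ w with hB
  have hbnd : S.bnd ≤ B := by
    unfold bnd
    calc ∑ c, 2 ^ (S.vars c).card ≤ ∑ _c : I, 2 ^ w :=
          Finset.sum_le_sum (fun c _ => Nat.pow_le_pow_right (by norm_num) (hw c))
      _ = B := by simp [hB]
  have hcore : Nat.card (S.Core b) ≤ B := (card_core_le b).trans hbnd
  have hweight : ∀ c, S.weight c + 1 ≤ (B + 2) * C + 1 := by
    intro c
    have h1 : S.code c + 1 ≤ C := hC c
    have h2 : S.weight c ≤ (B + 2) * C := by
      unfold weight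
      exact Nat.mul_le_mul (by omega) h1
    omega
  -- the map to pairs
  let g : S.Vtx b → S.Core b × Fin ((B + 2) * C + 1) := fun v =>
    (v.1.1, ⟨v.1.2, by
      have := v.2
      have := hweight v.1.1.item
      omega⟩)
  have hg : Injective g := by
    rintro ⟨⟨x, i⟩, hi⟩ ⟨⟨y, j⟩, hj⟩ e
    simp only [g, Prod.mk.injEq, Fin.mk.injEq] at e
    obtain ⟨rfl, rfl⟩ := e
    rfl
  have h1 := Nat.card_le_card_of_injective g hg
  rw [Nat.card_prod, Nat.card_eq_fintype_card (α := Fin _), Fintype.card_fin] at h1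
  calc Nat.card (S.Vtx b) ≤ Nat.card (S.Core b) * ((B + 2) * C + 1) := h1
    _ ≤ B * ((B + 2) * C + 1) := Nat.mul_le_mul_right _ hcore
    _ ≤ (B + 2) ^ 2 * (C + 1) := by
      have h2 : (B + 2) * C + 1 ≤ (B + 2) * (C + 1) := by nlinarith
      calc B * ((B + 2) * C + 1) ≤ (B + 2) * ((B + 2) * (C + 1)) :=
            Nat.mul_le_mul (by omega) h2
        _ = (B + 2) ^ 2 * (C + 1) := by ring

end XS

variable {k q n : ℕ} {F Hub Gd : Type} [AddCommGroup F] [Module (ZMod 2) F] [Fintype F]

namespace GS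

variable [Fintype Hub] [Fintype Gd] (S : GS k F Hub Gd)

theorem card_item_le : Fintype.card (GItem S) ≤
    2 * k * Fintype.card Gd * Fintype.card F + Fintype.card Gd := by
  let g : GItem S → (Pos k × Gd × F) ⊕ Gd := fun c => match c with
    | .e p b β _ => Sum.inl (p, b, β)
    | .h b => Sum.inr b
  have hg : Injective g := by
    intro c c' h
    cases c <;> cases c' <;> simp_all [g]
  have h1 := Fintype.card_le_of_injective g hg
  simp only [Fintype.card_sum, Fintype.card_prod, Fintype.card_fin, Fintype.card_bool] at h1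
  calc _ ≤ _ := h1
    _ = _ := by ring

theorem triple_card {a : Gd} {h : Fin 3 → Hub} (hT : S.Triple a h) : (S.hubs a).card ≤ 3 := by
  rw [hT.hubs_eq]
  exact Finset.card_image_le.trans (by simp)

theorem code_lt (c : GItem S) : S.xs.code c < Fintype.card (GItem S) :=
  (Fintype.equivFin (GItem S) c).isLt

theorem vars_card_le (hh : ∀ b, (S.hubs b).card ≤ 3) (c : GItem S) :
    (S.xs.vars c).card ≤ 2 * k + 4 := by
  cases c with
  | e p b β h =>
    have h1 : (S.gvars (GItem.e p b β h)).card ≤ (S.hubs b).card + 1 := by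
      unfold gvars
      refine (Finset.card_insert_le _ _).trans ?_
      have := Finset.card_image_le (s := S.hubs b)
        (f := fun H => (xv p H (β + S.off b H p.1) : GVar k F Hub Gd))
      omega
    have h2 := hh b
    show (S.gvars (GItem.e p b β h)).card ≤ _
    omega
  | h b =>
    have h1 : (S.gvars (GItem.h b)).card ≤ Fintype.card (Pos k) := by
      unfold gvars
      exact Finset.card_image_le.trans (le_of_eq Finset.card_univ)
    have h2 : Fintype.card (Pos k) = 2 * k := by
      simp [mul_comm]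
    show (S.gvars (GItem.h b)).card ≤ _
    omega

end GS

namespace Prog

variable (P : Prog k q n F)

theorem card_lam : Fintype.card (Lam q n k) ≤
    2 * n + q + q * (2 * n + 2) + 2 * (n + 1) + 1 + (6 * k + 11) + 1 := by
  let g : Lam q n k → Fin n ⊕ Fin n ⊕ Fin q ⊕ (Fin q × Fin (2 * n + 2)) ⊕
      (Fin (n + 1) × Bool) ⊕ Unit ⊕ Fin (6 * k + 11) ⊕ Unit := fun x => match x with
    | .orR r => Sum.inl r
    | .andR r => Sum.inr (Sum.inl r)
    | .cz t => Sum.inr (Sum.inr (Sum.inl t))
    | .cs t i => Sum.inr (Sum.inr (Sum.inr (Sum.inl (t, i))))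
    | .us r s => Sum.inr (Sum.inr (Sum.inr (Sum.inr (Sum.inl (r, s)))))
    | .bas => Sum.inr (Sum.inr (Sum.inr (Sum.inr (Sum.inr (Sum.inl ())))))
    | .del j => Sum.inr (Sum.inr (Sum.inr (Sum.inr (Sum.inr (Sum.inr (Sum.inl j))))))
    | .las => Sum.inr (Sum.inr (Sum.inr (Sum.inr (Sum.inr (Sum.inr (Sum.inr ()))))))
  have hg : Injective g := by
    intro x y h
    cases x <;> cases y <;> simp_all [g]
  have h1 := Fintype.card_le_of_injective g hg
  simp only [Fintype.card_sum, Fintype.card_prod, Fintype.card_fin, Fintype.card_bool,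
    Fintype.card_unit] at h1
  calc _ ≤ _ := h1
    _ = _ := by ring

theorem card_gad : Fintype.card (Gad q n k) ≤ 3 * Fintype.card (Lam q n k) + 4 := by
  let g : Gad q n k → (Lam q n k × Fin 3) ⊕ Fin 3 ⊕ Unit := fun x => match x with
    | .tri l τ => Sum.inl (l, τ)
    | .mono τ => Sum.inr (Sum.inl τ)
    | .tw => Sum.inr (Sum.inr ())
  have hg : Injective g := by
    intro x y h
    cases x <;> cases y <;> simp_all [g]
  have h1 := Fintype.card_le_of_injective g hg
  simp only [Fintype.card_sum, Fintype.card_prod, Fintype.card_fin, Fintype.card_unit] at h1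
  omega

theorem hubs_card (b : Gad q n k) : (P.gs.hubs b).card ≤ 3 := by
  cases b with
  | tri l τ => exact GS.triple_card P.gs (P.triple_tri l τ)
  | mono τ =>
    have : (P.gs.hubs (Gad.mono τ)) = {(τ, Tag.base)} := rfl
    rw [this]
    simp
  | tw =>
    have : (P.gs.hubs (Gad.tw : Gad q n k)) = {((0 : Fin 3), Tag.dly ⟨0, by omega⟩)} := rfl
    rw [this]
    simp

/-- The number of equations is polynomial. -/
theorem card_item_bound (hF : 0 < Fintype.card F) : Fintype.card (GItem P.gs) ≤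
    98 * (k + 1) ^ 2 * (q + 1) * (n + 1) * Fintype.card F := by
  have h1 := GS.card_item_le P.gs
  have h2 := card_lam (q := q) (n := n) (k := k)
  have h3 := card_gad (q := q) (n := n) (k := k)
  set X := (q + 1) * (n + 1) * (k + 1) with hX
  have hlam : 2 * n + q + q * (2 * n + 2) + 2 * (n + 1) + 1 + (6 * k + 11) + 1 ≤ 15 * X := by
    rw [hX]
    nlinarith [Nat.zero_le (q * n), Nat.zero_le (q * k), Nat.zero_le (n * k), Nat.zero_le (q * n * k)]
  have hgad : Fintype.card (Gad q n k) ≤ 49 * X := by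
    have : 1 ≤ X := by
      rw [hX]
      exact Nat.succ_le_of_lt (by positivity)
    omega
  set f := Fintype.card F with hf
  set G := Fintype.card (Gad q n k) with hG
  have e : 2 * k * G * f + G ≤ 2 * (k + 1) * f * G := by
    nlinarith [Nat.zero_le (k * G * f)]
  calc Fintype.card (GItem P.gs) ≤ 2 * k * G * f + G := h1
    _ ≤ 2 * (k + 1) * f * G := e
    _ ≤ 2 * (k + 1) * f * (49 * X) := Nat.mul_le_mul_left _ hgad
    _ = 98 * (k + 1) ^ 2 * (q + 1) * (n + 1) * f := by
      rw [hX]
      ring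

/-- The number of vertices. -/
theorem card_vtx_bound (hF : 0 < Fintype.card F) (b : Bool) : Nat.card (P.gs.xs.Vtx b) ≤
    (98 * (k + 1) ^ 2 * (q + 1) * (n + 1) * Fintype.card F * 2 ^ (2 * k + 4) + 2) ^ 3 := by
  have h1 := XS.card_vtx_le P.gs.xs (C := Fintype.card (GItem P.gs)) (w := 2 * k + 4)
    (GS.code_lt P.gs) (GS.vars_card_le P.gs P.hubs_card) b
  have h2 := P.card_item_bound hF
  set M := 98 * (k + 1) ^ 2 * (q + 1) * (n + 1) * Fintype.card F with hM
  set A := Fintype.card (GItem P.gs) with hA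
  have hw : 1 ≤ 2 ^ (2 * k + 4) := Nat.one_le_two_pow
  have h3 : A * 2 ^ (2 * k + 4) ≤ M * 2 ^ (2 * k + 4) := Nat.mul_le_mul_right _ h2
  have h4 : A + 1 ≤ M * 2 ^ (2 * k + 4) + 2 := by
    have : A ≤ M * 2 ^ (2 * k + 4) := h2.trans (Nat.le_mul_of_pos_right _ (by positivity))
    omega
  calc Nat.card (P.gs.xs.Vtx b) ≤ (A * 2 ^ (2 * k + 4) + 2) ^ 2 * (A + 1) := h1
    _ ≤ (M * 2 ^ (2 * k + 4) + 2) ^ 2 * (M * 2 ^ (2 * k + 4) + 2) :=
      Nat.mul_le_mul (Nat.pow_le_pow_left (by omega) 2) h4
    _ = _ := by ring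

/-- Both graphs have the same number of vertices. -/
theorem card_vtx_eq (hk : 0 < k) : Nat.card (P.gs.xs.Vtx false) = Nat.card (P.gs.xs.Vtx true) := by
  apply XS.card_eq
  intro c
  cases c with
  | e p b β h =>
    exact ⟨yv b p, (GS.mem_gvars_e.2 (Or.inl rfl) : yv b p ∈ P.gs.gvars (GItem.e p b β h))⟩
  | h b =>
    exact ⟨yv b (⟨0, hk⟩, false), (GS.mem_gvars_h.2 ⟨_, rfl⟩ :
      yv b (⟨0, hk⟩, false) ∈ P.gs.gvars (GItem.h b))⟩

end Prog

end Vale.Agent.P310u
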